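import Vale.Agent.P300.EMain

namespace Vale.Agent.Results.P300.Disproof

open Vale.Agent.P300

theorem result :
    (∃ (N : ℕ) (X : Set (PSp (Fin (N + 1)))), IsProjAlg X ∧ IsSmoothProj X ∧ IsConnected X ∧
      ∃ (W : Type) (_ : TopologicalSpace W) (p : W → X), IsCoveringMap p ∧
        Function.Surjective p ∧ SimplyConnectedSpace W ∧ ¬ IsHolConvex X p) ∧
    ¬ ∀ (N : ℕ) (X : Set (PSp (Fin (N + 1)))), IsProjAlg X → IsSmoothProj X → IsConnected X →
      ∀ (W : Type) [TopologicalSpace W] (p : W → X), IsCoveringMap p → Function.Surjective p →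
        SimplyConnectedSpace W → IsHolConvex X p := by
  refine ⟨counterexample, fun h => ?_⟩
  obtain ⟨N, X, h1, h2, h3, W, _, p, h4, h5, h6, h7⟩ := counterexample
  exact h7 (h N X h1 h2 h3 W p h4 h5 h6)

end Vale.Agent.Results.P300.Disproof
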